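import Vale.Agent.P258.R2.H863.SpecEx

set_option linter.all false

/-! # P258: permutations of five letters, coded by natural numbers -/

namespace Vale.Agent.P258.R2.H526

open Equiv

abbrev S5 := Perm (Fin 5)

def act (n i : ℕ) : ℕ := (n / 8 ^ i) % 8

def cjL (x y : ℕ) : ℕ :=
  act x (act y 0) * 8 ^ act x 0 + act x (act y 1) * 8 ^ act x 1 + act x (act y 2) * 8 ^ act x 2 +
    act x (act y 3) * 8 ^ act x 3 + act x (act y 4) * 8 ^ act x 4

def inC (x : ℕ) : ℕ :=
  8 ^ act x 1 + 2 * 8 ^ act x 2 + 3 * 8 ^ act x 3 + 4 * 8 ^ act x 4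

def muC (x y : ℕ) : ℕ :=
  act x (act y 0) + act x (act y 1) * 8 + act x (act y 2) * 64 +
    act x (act y 3) * 512 + act x (act y 4) * 4096

def code (σ : S5) : ℕ := ∑ i : Fin 5, (σ i).val * 8 ^ i.val

theorem code_def (σ : S5) : code σ = (σ 0).val + (σ 1).val * 8 + (σ 2).val * 64 +
    (σ 3).val * 512 + (σ 4).val * 4096 := by
  simp [code, Fin.sum_univ_five]

theorem act_code (σ : S5) (i : Fin 5) : act (code σ) i.val = (σ i).val := by
  have h0 := (σ 0).isLt
  have h1 := (σ 1).isLt
  have h2 := (σ 2).isLt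
  have h3 := (σ 3).isLt
  have h4 := (σ 4).isLt
  rw [act, code_def]
  fin_cases i <;> simp <;> omega

theorem act0 (σ : S5) : act (code σ) 0 = (σ 0).val := act_code σ 0
theorem act1 (σ : S5) : act (code σ) 1 = (σ 1).val := act_code σ 1
theorem act2 (σ : S5) : act (code σ) 2 = (σ 2).val := act_code σ 2
theorem act3 (σ : S5) : act (code σ) 3 = (σ 3).val := act_code σ 3
theorem act4 (σ : S5) : act (code σ) 4 = (σ 4).val := act_code σ 4

theorem code_inj {σ τ : S5} (h : code σ = code τ) : σ = τ := by
  apply Equiv.ext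
  intro i
  apply Fin.ext
  rw [← act_code, ← act_code, h]

theorem muC_code (x y : S5) : muC (code x) (code y) = code (x * y) := by
  rw [code_def (x * y)]
  simp only [muC, act0, act1, act2, act3, act4, act_code, Perm.mul_apply]

theorem cjL_code (x y : S5) : cjL (code x) (code y) = code (x * y * x⁻¹) := by
  have h : code (x * y * x⁻¹) = ∑ i : Fin 5, (x (y i)).val * 8 ^ (x i).val := by
    rw [code, ← Equiv.sum_comp x]
    refine Finset.sum_congr rfl fun i _ => ?_
    simp [Perm.mul_apply]
  rw [h, Fin.sum_univ_five]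
  simp only [cjL, act0, act1, act2, act3, act4, act_code]

theorem inC_code (x : S5) : inC (code x) = code x⁻¹ := by
  have h : code x⁻¹ = ∑ i : Fin 5, i.val * 8 ^ (x i).val := by
    rw [code, ← Equiv.sum_comp x]
    refine Finset.sum_congr rfl fun i _ => ?_
    simp
  rw [h, Fin.sum_univ_five]
  simp [inC, act0, act1, act2, act3, act4]

theorem cjR_code (x y : S5) : cjL (inC (code x)) (code y) = code (x⁻¹ * y * x) := by
  rw [inC_code, cjL_code, inv_inv]

def L4 : List ℕ := [6352, 13072, 10328, 5400, 13408, 8928, 16593, 1809, 17433, 2201, 9761, 12449,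
  17090, 5890, 2250, 12554, 16474, 1634, 17475, 6275, 10251, 1291, 16915, 675, 9796, 12932, 13324,
  8396, 5652, 4252]

def L6 : List ℕ := [10433, 13569, 14353, 8473, 1249, 14402, 6170, 794, 12834, 4322, 8963, 2131,
  4371, 5155, 8291, 5316, 12372, 724, 8732, 1116]

def isIn (n : ℕ) (L : List ℕ) : Bool := L.any fun m => Nat.beq m n

theorem isIn_iff {n : ℕ} {L : List ℕ} : isIn n L = true ↔ n ∈ L := by
  simp [isIn]

def dst (a b c d e : ℕ) : Bool :=
  !(Nat.beq a b || Nat.beq a c || Nat.beq a d || Nat.beq a e || Nat.beq b c || Nat.beq b d ||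
    Nat.beq b e || Nat.beq c d || Nat.beq c e || Nat.beq d e)

def enc (a b c d e : ℕ) : ℕ := a + b * 8 + c * 64 + d * 512 + e * 4096

def tst4 (n : ℕ) : Bool :=
  !(Nat.beq (muC (muC n n) (muC n n)) 18056) || (Nat.beq (muC n n) 18056 || isIn n L4)

def tst6 (n : ℕ) : Bool :=
  Nat.beq (muC (muC n n) (muC n n)) 18056 || (Nat.beq (muC (muC n n) n) 18056 ||
    (Nat.beq (muC (muC (muC n n) (muC n n)) n) 18056 || isIn n L6))

def allP (p : ℕ → Bool) : Bool :=
  (List.range 5).all fun a => (List.range 5).all fun b => (List.range 5).all fun c =>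
    (List.range 5).all fun d => (List.range 5).all fun e =>
      !(dst a b c d e) || p (enc a b c d e)

theorem chk4 : allP tst4 = true := by decide +kernel
theorem chk6 : allP tst6 = true := by decide +kernel

theorem of_allP {p : ℕ → Bool} (h : allP p = true) (σ : S5) : p (code σ) = true := by
  have hne : ∀ i j : Fin 5, i ≠ j → (σ i).val ≠ (σ j).val := fun i j hij h =>
    hij (σ.injective (Fin.ext h))
  have h1 := List.all_eq_true.1 h (σ 0).val (List.mem_range.2 (σ 0).isLt)
  have h2 := List.all_eq_true.1 h1 (σ 1).val (List.mem_range.2 (σ 1).isLt)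
  have h3 := List.all_eq_true.1 h2 (σ 2).val (List.mem_range.2 (σ 2).isLt)
  have h4 := List.all_eq_true.1 h3 (σ 3).val (List.mem_range.2 (σ 3).isLt)
  have h5 := List.all_eq_true.1 h4 (σ 4).val (List.mem_range.2 (σ 4).isLt)
  rw [Bool.or_eq_true] at h5
  rcases h5 with h5 | h5
  · exfalso
    have e1 := hne 0 1 (by decide)
    have e2 := hne 0 2 (by decide)
    have e3 := hne 0 3 (by decide)
    have e4 := hne 0 4 (by decide)
    have e5 := hne 1 2 (by decide)
    have e6 := hne 1 3 (by decide)
    have e7 := hne 1 4 (by decide)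
    have e8 := hne 2 3 (by decide)
    have e9 := hne 2 4 (by decide)
    have e10 := hne 3 4 (by decide)
    simp [dst, e1, e2, e3, e4, e5, e6, e7, e8, e9, e10] at h5
  · rw [code_def]
    exact h5

theorem code_one : code (1 : S5) = 18056 := by
  rw [code_def]
  rfl

theorem beq_one {x : S5} : Nat.beq (code x) 18056 = true ↔ x = 1 := by
  rw [← code_one]
  constructor
  · intro h
    exact code_inj (Nat.eq_of_beq_eq_true h)
  · rintro rfl
    exact Nat.beq_refl _

theorem p4 (x : S5) : x * x * (x * x) = x ^ 4 := by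
  simp only [pow_succ, pow_zero, one_mul, mul_assoc]

theorem mem4 {x : S5} (h4 : x ^ 4 = 1) (h2 : x ^ 2 ≠ 1) : code x ∈ L4 := by
  have h := of_allP chk4 x
  rw [tst4, muC_code, muC_code, Bool.or_eq_true, Bool.or_eq_true, isIn_iff] at h
  rcases h with h | h | h
  · exfalso
    rw [Bool.not_eq_true', ← Bool.not_eq_true] at h
    apply h
    rw [beq_one, p4, h4]
  · rw [beq_one] at h
    exact absurd (by rw [pow_two]; exact h) h2
  · exact h

theorem mem6 {x : S5} (hs : Perm.sign x = -1) (h4 : x ^ 4 ≠ 1) : code x ∈ L6 := by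
  have h := of_allP chk6 x
  rw [tst6, muC_code, muC_code, muC_code, muC_code, Bool.or_eq_true, Bool.or_eq_true,
    Bool.or_eq_true, isIn_iff, beq_one, beq_one, beq_one] at h
  rcases h with h | h | h | h
  · exact absurd (by rw [← p4]; exact h) h4
  · exfalso
    have := congrArg Perm.sign h
    simp only [map_mul, hs, map_one] at this
    exact absurd this (by decide)
  · exfalso
    have := congrArg Perm.sign h
    simp only [map_mul, hs, map_one] at this
    exact absurd this (by decide)
  · exact h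

end Vale.Agent.P258.R2.H526
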