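import Vale.Agent.P258.R2.H526.ExA

set_option linter.all false

/-! # P258: the knot with 13 crossings, row EX -/

namespace Vale.Agent.P258.R2.H526

open Equiv Vale.Agent.P258 Vale.Agent.P258.R2.H863

/-! ## The relations -/

structure Rel {G : Type} [Group G] (v : Fin 13 → G) : Prop where
  r0 : v 1 = v 5 * v 0 * (v 5)⁻¹
  r1 : v 2 = (v 6)⁻¹ * v 1 * v 6
  r2 : v 3 = v 0 * v 2 * (v 0)⁻¹
  r3 : v 4 = v 9 * v 3 * (v 9)⁻¹
  r4 : v 5 = (v 7)⁻¹ * v 4 * v 7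
  r5 : v 6 = v 12 * v 5 * (v 12)⁻¹
  r6 : v 7 = (v 4)⁻¹ * v 6 * v 4
  r7 : v 8 = (v 10)⁻¹ * v 7 * v 10
  r8 : v 9 = (v 6)⁻¹ * v 8 * v 6
  r9 : v 10 = v 5 * v 9 * (v 5)⁻¹
  r10 : v 11 = (v 8)⁻¹ * v 10 * v 8
  r11 : v 12 = (v 1)⁻¹ * v 11 * v 1
  r12 : v 0 = v 2 * v 12 * (v 2)⁻¹

theorem posR {G : Type} [Group G] {x y z : G} (h : z = x ^ (-(1 : ℤ)) * y * x ^ (1 : ℤ)) :
    z = x⁻¹ * y * x := by simpa using h

theorem negR {G : Type} [Group G] {x y z : G} (h : z = x ^ (-(-1 : ℤ)) * y * x ^ (-1 : ℤ)) :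
    z = x * y * x⁻¹ := by simpa using h

theorem rel_of {G : Type} [Group G] {v : Fin 13 → G} (h : knot13.IsCol v) : Rel v where
  r0 := negR (h (0 : Fin 13))
  r1 := posR (h (1 : Fin 13))
  r2 := negR (h (2 : Fin 13))
  r3 := negR (h (3 : Fin 13))
  r4 := posR (h (4 : Fin 13))
  r5 := negR (h (5 : Fin 13))
  r6 := posR (h (6 : Fin 13))
  r7 := posR (h (7 : Fin 13))
  r8 := posR (h (8 : Fin 13))
  r9 := negR (h (9 : Fin 13))
  r10 := posR (h (10 : Fin 13))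
  r11 := posR (h (11 : Fin 13))
  r12 := negR (h (12 : Fin 13))

theorem inv_r {G : Type} [Group G] {x y z : G} (h : z = x * y * x⁻¹) : y = x⁻¹ * z * x := by
  rw [h]; group

theorem Rel.ext {G : Type} [Group G] {v w : Fin 13 → G} (hv : Rel v) (hw : Rel w)
    (h0 : v 0 = w 0) (h1 : v 1 = w 1) (h6 : v 6 = w 6) (h8 : v 8 = w 8) : v = w := by
  have h2 : v 2 = w 2 := by rw [hv.r1, hw.r1, h1, h6]
  have h12 : v 12 = w 12 := by rw [inv_r hv.r12, inv_r hw.r12, h0, h2]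
  have h5 : v 5 = w 5 := by rw [inv_r hv.r5, inv_r hw.r5, h6, h12]
  have h3 : v 3 = w 3 := by rw [hv.r2, hw.r2, h0, h2]
  have h9 : v 9 = w 9 := by rw [hv.r8, hw.r8, h6, h8]
  have h4 : v 4 = w 4 := by rw [hv.r3, hw.r3, h3, h9]
  have h7 : v 7 = w 7 := by rw [hv.r6, hw.r6, h4, h6]
  have h10 : v 10 = w 10 := by rw [hv.r9, hw.r9, h5, h9]
  have h11 : v 11 = w 11 := by rw [hv.r10, hw.r10, h8, h10]
  funext i
  fin_cases i <;> assumption

/-! ## The search -/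

def x5f (c x6 x1 : ℕ) : ℕ := cjL (inC (cjL (inC (cjL (inC x6) x1)) c)) x6

def lf3 (S : List (ℕ × ℕ × ℕ)) (c x6 x1 x8 x5 x9 x12 x4 x7 : ℕ) : Bool :=
  !(Nat.beq (cjL (inC x7) x4) x5) || (!(Nat.beq (cjL (inC (cjL x5 x9)) x7) x8) ||
    (!(Nat.beq (cjL (inC x1) (cjL (inC x8) (cjL x5 x9))) x12) ||
      S.any fun s => Nat.beq s.1 x1 && (Nat.beq s.2.1 x6 && Nat.beq s.2.2 x8)))

def lf2 (S : List (ℕ × ℕ × ℕ)) (c x6 x1 x8 x5 x9 x12 x3 x4 : ℕ) : Bool :=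
  lf3 S c x6 x1 x8 x5 x9 x12 x4 (cjL (inC x4) x6)

def lf1 (S : List (ℕ × ℕ × ℕ)) (c x6 x1 x2 x8 : ℕ) : Bool :=
  lf2 S c x6 x1 x8 (x5f c x6 x1) (cjL (inC x6) x8) (cjL (inC x2) c) (cjL c x2)
    (cjL (cjL (inC x6) x8) (cjL c x2))

def srch (L : List ℕ) (S : List (ℕ × ℕ × ℕ)) (c : ℕ) : Bool :=
  L.all fun x6 => L.all fun x1 => !(Nat.beq (cjL (x5f c x6 x1) c) x1) ||
    L.all fun x8 => lf1 S c x6 x1 (cjL (inC x6) x1) x8

def S4 : List (ℕ × ℕ × ℕ) := [(16593, 16593, 16593), (17090, 13408, 8396), (17433, 6275, 1809),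
  (16474, 1291, 12449), (16915, 9796, 6352)]

def S6 : List (ℕ × ℕ × ℕ) := [(14353, 14353, 14353)]

theorem srch4 : srch L4 S4 16593 = true := by decide +kernel
theorem srch6 : srch L6 S6 14353 = true := by decide +kernel

theorem of_srch {L : List ℕ} {S : List (ℕ × ℕ × ℕ)} {c : ℕ} (h : srch L S c = true)
    {v : Fin 13 → S5} (hv : Rel v) (h0 : code (v 0) = c) (m1 : code (v 1) ∈ L)
    (m6 : code (v 6) ∈ L) (m8 : code (v 8) ∈ L) :
    ∃ s ∈ S, code (v 1) = s.1 ∧ code (v 6) = s.2.1 ∧ code (v 8) = s.2.2 := by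
  have e2 : cjL (inC (code (v 6))) (code (v 1)) = code (v 2) := by rw [cjR_code, ← hv.r1]
  have e12 : cjL (inC (code (v 2))) c = code (v 12) := by
    rw [← h0, cjR_code, ← inv_r hv.r12]
  have e5 : x5f c (code (v 6)) (code (v 1)) = code (v 5) := by
    rw [x5f, e2, e12, cjR_code, ← inv_r hv.r5]
  have e3 : cjL c (code (v 2)) = code (v 3) := by rw [← h0, cjL_code, ← hv.r2]
  have e9 : cjL (inC (code (v 6))) (code (v 8)) = code (v 9) := by rw [cjR_code, ← hv.r8]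
  have e4 : cjL (code (v 9)) (code (v 3)) = code (v 4) := by rw [cjL_code, ← hv.r3]
  have e7 : cjL (inC (code (v 4))) (code (v 6)) = code (v 7) := by rw [cjR_code, ← hv.r6]
  have e5' : cjL (inC (code (v 7))) (code (v 4)) = code (v 5) := by rw [cjR_code, ← hv.r4]
  have e10 : cjL (code (v 5)) (code (v 9)) = code (v 10) := by rw [cjL_code, ← hv.r9]
  have e8 : cjL (inC (code (v 10))) (code (v 7)) = code (v 8) := by rw [cjR_code, ← hv.r7]
  have e11 : cjL (inC (code (v 8))) (code (v 10)) = code (v 11) := by rw [cjR_code, ← hv.r10]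
  have e12' : cjL (inC (code (v 1))) (code (v 11)) = code (v 12) := by rw [cjR_code, ← hv.r11]
  have e1 : cjL (code (v 5)) c = code (v 1) := by rw [← h0, cjL_code, ← hv.r0]
  have h1 := List.all_eq_true.1 (List.all_eq_true.1 h _ m6) _ m1
  rw [e5, e1, Nat.beq_refl] at h1
  have h2 := List.all_eq_true.1 (by simpa using h1) _ m8
  rw [lf1, e2, e5, e9, e12, e3, e4, lf2, e7, lf3, e5', e10, e8, e11, e12'] at h2
  simp only [Nat.beq_refl, Bool.not_true, Bool.false_or, List.any_eq_true, Bool.and_eq_true] at h2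
  obtain ⟨s, hs, a, b, c⟩ := h2
  exact ⟨s, hs, (Nat.eq_of_beq_eq_true a).symm, (Nat.eq_of_beq_eq_true b).symm,
    (Nat.eq_of_beq_eq_true c).symm⟩

end Vale.Agent.P258.R2.H526
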