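import Vale.Agent.P258.R2.H526.ExB

set_option linter.all false

/-! # P258: the knot with 13 crossings, row EX (end) -/

namespace Vale.Agent.P258.R2.H526

open Equiv Vale.Agent.P258 Vale.Agent.P258.R2.H863

theorem isKnot : knot13.IsKnot := by
  have h : ∀ a b : Fin 13, (fun x : Fin 13 => (Fin.ofNat 13 (x.val + 1) : Fin 13))^[(b.val + 13 -
      a.val) % 13] a = b := by decide
  exact fun a b => ⟨_, h a b⟩

theorem period0 : Function.minimalPeriod knot13.next arc0 = 13 := by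
  have : Fact (Nat.Prime 13) := ⟨by norm_num⟩
  apply Function.minimalPeriod_eq_prime
  · decide
  · decide

theorem walk0 : knot13.walk arc0 = ([0, 1, 2, 3, 4, 5, 6, 7, 8, 9, 10, 11, 12] : List (Fin 13)) := by
  unfold Diagram.walk
  rw [period0]
  rfl

theorem writhe0 : knot13.selfWrithe arc0 = 1 := by
  unfold Diagram.selfWrithe
  rw [walk0]
  have h2 : (fun b : Fin 13 => @decide (knot13.SameComponent arc0 (knot13.above b))
      (Classical.propDecidable _)) = fun b => true := by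
    funext b
    simpa using isKnot arc0 (knot13.above b)
  erw [h2]
  decide

theorem lonVal0 {G : Type} [Group G] (v : Fin 13 → G) : knot13.lonVal v arc0 =
    (v 5)⁻¹ * (v 6 * ((v 0)⁻¹ * ((v 9)⁻¹ * (v 7 * ((v 12)⁻¹ * (v 4 * (v 10 * (v 6 *
      ((v 5)⁻¹ * (v 8 * (v 1 * (v 2)⁻¹))))))))))) * (v 0)⁻¹ := by
  have h1 : (List.map (fun b : Fin 13 => v (knot13.above b) ^ ((knot13.sgn b : ℤˣ) : ℤ))
      [0, 1, 2, 3, 4, 5, 6, 7, 8, 9, 10, 11, 12]).prod =
      v 5 ^ (-1 : ℤ) * (v 6 ^ (1 : ℤ) * (v 0 ^ (-1 : ℤ) * (v 9 ^ (-1 : ℤ) * (v 7 ^ (1 : ℤ) *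
        (v 12 ^ (-1 : ℤ) * (v 4 ^ (1 : ℤ) * (v 10 ^ (1 : ℤ) * (v 6 ^ (1 : ℤ) * (v 5 ^ (-1 : ℤ) *
        (v 8 ^ (1 : ℤ) * (v 1 ^ (1 : ℤ) * (v 2 ^ (-1 : ℤ) * 1)))))))))))) := by
    rfl
  have h3 := lonVal_eq (D := knot13) v arc0 _ _ _ walk0 writhe0 h1
  have h2 : v arc0 = v 0 := rfl
  rw [h3, h2]
  simp only [zpow_one, zpow_neg_one, mul_one]

def q0 : S5 := ⟨![1, 2, 3, 0, 4], ![3, 0, 1, 2, 4], by decide, by decide⟩
def q1 : S5 := ⟨![2, 0, 3, 1, 4], ![1, 3, 0, 2, 4], by decide, by decide⟩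
def q2 : S5 := ⟨![3, 1, 0, 4, 2], ![2, 1, 4, 0, 3], by decide, by decide⟩
def q3 : S5 := ⟨![4, 0, 2, 1, 3], ![1, 3, 2, 4, 0], by decide, by decide⟩
def q5 : S5 := ⟨![2, 3, 1, 0, 4], ![3, 2, 0, 1, 4], by decide, by decide⟩
def q6 : S5 := ⟨![0, 4, 1, 2, 3], ![0, 2, 3, 4, 1], by decide, by decide⟩
def q7 : S5 := ⟨![4, 1, 3, 0, 2], ![3, 1, 4, 2, 0], by decide, by decide⟩
def q9 : S5 := ⟨![1, 3, 2, 4, 0], ![4, 0, 2, 1, 3], by decide, by decide⟩
def q12 : S5 := ⟨![2, 4, 1, 3, 0], ![4, 2, 0, 3, 1], by decide, by decide⟩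
def c6 : S5 := ⟨![1, 2, 0, 4, 3], ![2, 0, 1, 4, 3], by decide, by decide⟩

/-- the colouring -/
def w1 : Fin 13 → S5 := ![q0, q1, q2, q3, q3, q5, q6, q7, q7, q9, q7, q7, q12]

theorem w1_col : knot13.IsCol w1 := by
  intro a
  change Fin 13 at a
  revert a
  decide +kernel

theorem w1_lon : knot13.lonVal w1 arc0 = w1 arc0 ^ 2 := by
  rw [lonVal0]
  decide +kernel

/-! ## Conjugation -/

/-- a conjugate colouring -/
def cj {G : Type} [Group G] (g : G) (v : Fin 13 → G) : Fin 13 → G := fun i => g * v i * g⁻¹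

theorem cj_eq {G : Type} [Group G] (g : G) (v : Fin 13 → G) :
    cj g v = fun i => (MulAut.conj g).toMonoidHom (v i) := by
  funext i
  simp [cj]

theorem cj_col {G : Type} [Group G] (g : G) {v : Fin 13 → G} (h : knot13.IsCol v) :
    knot13.IsCol (cj g v) := by
  rw [cj_eq]
  exact Diagram.IsCol.map knot13 h _

theorem cj_lon {G : Type} [Group G] (g : G) (v : Fin 13 → G) :
    knot13.lonVal (cj g v) arc0 = g * knot13.lonVal v arc0 * g⁻¹ := by
  have h1 : knot13.lonVal (cj g v) arc0 = (MulAut.conj g).toMonoidHom (knot13.lonVal v arc0) :=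
    (congrArg (fun w : Fin 13 → G => knot13.lonVal w arc0) (cj_eq g v)).trans
      (Diagram.lonVal_map knot13 v (MulAut.conj g).toMonoidHom arc0)
  rw [h1]
  simp

theorem cj_cj {G : Type} [Group G] (g h : G) (v : Fin 13 → G) : cj g (cj h v) = cj (g * h) v := by
  funext i
  simp only [cj]
  group

theorem conj_all {G : Type} [Group G] {v : Fin 13 → G} (h : knot13.IsCol v) (b : Fin 13) :
    ∃ g : G, v b = g * v 0 * g⁻¹ := by
  obtain ⟨i, hi⟩ := isKnot arc0 b
  rw [← hi]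
  clear hi
  induction i with
  | zero => exact ⟨1, by simp; rfl⟩
  | succ i ih =>
    obtain ⟨g, hg⟩ := ih
    rw [Function.iterate_succ_apply']
    refine ⟨v (knot13.above (knot13.next^[i] arc0)) ^ (-(knot13.sgn (knot13.next^[i] arc0) : ℤ)) * g,
      ?_⟩
    have h1 := h (knot13.next^[i] arc0)
    rw [h1, hg]
    group

theorem mem_all4 {v : Fin 13 → S5} (h : knot13.IsCol v) (h4 : v 0 ^ 4 = 1) (h2 : v 0 ^ 2 ≠ 1)
    (b : Fin 13) : code (v b) ∈ L4 := by
  obtain ⟨g, hg⟩ := conj_all h b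
  rw [hg]
  apply mem4
  · rw [conj_pow, h4]; group
  · rw [conj_pow]
    intro h3
    apply h2
    have : v 0 ^ 2 = g⁻¹ * (g * v 0 ^ 2 * g⁻¹) * g := by group
    rw [this, h3]; group

theorem mem_all6 {v : Fin 13 → S5} (h : knot13.IsCol v) (hs : Perm.sign (v 0) = -1)
    (h4 : v 0 ^ 4 ≠ 1) (b : Fin 13) : code (v b) ∈ L6 := by
  obtain ⟨g, hg⟩ := conj_all h b
  rw [hg]
  apply mem6
  · rw [map_mul, map_mul, map_inv, mul_comm, ← mul_assoc, inv_mul_cancel, one_mul, hs]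
  · rw [conj_pow]
    intro h3
    apply h4
    have : v 0 ^ 4 = g⁻¹ * (g * v 0 ^ 4 * g⁻¹) * g := by group
    rw [this, h3]; group

/-! ## Conjugating the first arc to a fixed element -/

def good (n : ℕ) : Bool := (List.range 5).all fun i =>
  Nat.blt (act n i) 5 && (Nat.blt (act (inC n) i) 5 &&
    (Nat.beq (act (inC n) (act n i)) i && Nat.beq (act n (act (inC n) i)) i))

theorem exists_perm {n : ℕ} (h : good n = true) (hn : n = act n 0 + act n 1 * 8 + act n 2 * 64 +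
    act n 3 * 512 + act n 4 * 4096) : ∃ g : S5, code g = n := by
  have h1 : ∀ i : Fin 5, (act n i.val < 5 ∧ act (inC n) i.val < 5) ∧
      (act (inC n) (act n i.val) = i.val ∧ act n (act (inC n) i.val) = i.val) := by
    intro i
    have h2 := List.all_eq_true.1 h i.val (List.mem_range.2 i.isLt)
    simp only [Bool.and_eq_true, Nat.blt_eq] at h2
    exact ⟨⟨h2.1, h2.2.1⟩, Nat.eq_of_beq_eq_true h2.2.2.1, Nat.eq_of_beq_eq_true h2.2.2.2⟩
  refine ⟨⟨fun i => ⟨act n i.val, (h1 i).1.1⟩, fun i => ⟨act (inC n) i.val, (h1 i).1.2⟩,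
    fun i => Fin.ext (h1 i).2.1, fun i => Fin.ext (h1 i).2.2⟩, ?_⟩
  rw [code_def]
  exact hn.symm

def G4 : List ℕ := [13380, 9796, 8900, 12932, 5316, 5764, 18056, 14472, 17608, 13576, 10440, 9992,
  17496, 10328, 13408, 9824, 18000, 14416, 17048, 8984, 8928, 12960, 17104, 13072, 6296, 5400,
  5344, 5792, 6352, 5904]

def G6 : List ℕ := [8739, 5155, 18056, 17608, 10440, 18000, 8963, 10328, 5379, 17496, 17104, 8984,
  10307, 17048, 6275, 6352, 5400, 17475, 6296, 17027]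

def cov (L G : List ℕ) (c : ℕ) : Bool := L.all fun x => G.any fun g =>
  good g && (Nat.beq g (act g 0 + act g 1 * 8 + act g 2 * 64 + act g 3 * 512 + act g 4 * 4096) &&
    Nat.beq (cjL g x) c)

theorem cov4 : cov L4 G4 16593 = true := by decide +kernel
theorem cov6 : cov L6 G6 14353 = true := by decide +kernel

theorem of_cov {L G : List ℕ} {c : ℕ} (h : cov L G c = true) {x : S5} (hx : code x ∈ L) :
    ∃ g : S5, code (g * x * g⁻¹) = c := by
  have h1 := List.all_eq_true.1 h _ hx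
  rw [List.any_eq_true] at h1
  obtain ⟨n, -, h2⟩ := h1
  simp only [Bool.and_eq_true] at h2
  obtain ⟨g, hg⟩ := exists_perm h2.1 (Nat.eq_of_beq_eq_true h2.2.1)
  refine ⟨g, ?_⟩
  rw [← cjL_code, hg]
  exact Nat.eq_of_beq_eq_true h2.2.2

/-! ## The two searches -/

theorem const_of {v : Fin 13 → S5} (hv : Rel v) {x : S5} (h0 : v 0 = x) (h1 : v 1 = x)
    (h6 : v 6 = x) (h8 : v 8 = x) : v = fun _ => x :=
  hv.ext (rel_of (Diagram.isCol_const knot13 x)) h0 h1 h6 h8

theorem code_q0 : code q0 = 16593 := by decide +kernel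
theorem code_c6 : code c6 = 14353 := by decide +kernel

theorem four {v : Fin 13 → S5} (h : knot13.IsCol v) (h4 : v 0 ^ 4 = 1) (h2 : v 0 ^ 2 ≠ 1)
    (hl : knot13.lonVal v arc0 = v 0 ^ 2) : ∃ g : S5, v = cj g w1 := by
  obtain ⟨g, hg⟩ := of_cov cov4 (mem_all4 h h4 h2 0)
  have hu := cj_col g h
  have hur := rel_of hu
  have hu0 : code (cj g v 0) = 16593 := hg
  have m : ∀ b, code (cj g v b) ∈ L4 := by
    intro b
    refine mem_all4 hu ?_ ?_ b
    · change (g * v 0 * g⁻¹) ^ 4 = 1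
      rw [conj_pow, h4]; group
    · change (g * v 0 * g⁻¹) ^ 2 ≠ 1
      rw [conj_pow]
      intro h3
      apply h2
      have : v 0 ^ 2 = g⁻¹ * (g * v 0 ^ 2 * g⁻¹) * g := by group
      rw [this, h3]; group
  obtain ⟨s, hs, e1, e6, e8⟩ := of_srch srch4 hur hu0 (m 1) (m 6) (m 8)
  have key : ∀ k : S5, code (cj k w1 0) = 16593 → code (cj k w1 1) = s.1 →
      code (cj k w1 6) = s.2.1 → code (cj k w1 8) = s.2.2 → ∃ g : S5, v = cj g w1 := by
    intro k k0 k1 k6 k8
    have := hur.ext (rel_of (cj_col k w1_col)) (code_inj (hu0.trans k0.symm))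
      (code_inj (e1.trans k1.symm)) (code_inj (e6.trans k6.symm)) (code_inj (e8.trans k8.symm))
    refine ⟨g⁻¹ * k, ?_⟩
    rw [← cj_cj, ← this, cj_cj, inv_mul_cancel]
    funext i
    simp [cj]
  simp only [S4, List.mem_cons, List.not_mem_nil, or_false] at hs
  rcases hs with rfl | rfl | rfl | rfl | rfl
  · exfalso
    have hc := const_of hur (code_inj (hu0.trans code_q0.symm)) (code_inj (e1.trans code_q0.symm))
      (code_inj (e6.trans code_q0.symm)) (code_inj (e8.trans code_q0.symm))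
    have h5 := cj_lon g v
    have h6 : knot13.lonVal (cj g v) arc0 = 1 :=
      (congrArg (fun w : Fin 13 → S5 => knot13.lonVal w arc0) hc).trans
        (Diagram.lonVal_const knot13 isKnot q0 arc0)
    rw [h6, hl] at h5
    apply h2
    have : v 0 ^ 2 = g⁻¹ * (g * v 0 ^ 2 * g⁻¹) * g := by group
    rw [this, ← h5]; group
  · exact key 1 (by decide +kernel) (by decide +kernel) (by decide +kernel) (by decide +kernel)
  · exact key (q0 * q0) (by decide +kernel) (by decide +kernel) (by decide +kernel)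
      (by decide +kernel)
  · exact key q0 (by decide +kernel) (by decide +kernel) (by decide +kernel) (by decide +kernel)
  · exact key (q0 * q0 * q0) (by decide +kernel) (by decide +kernel) (by decide +kernel)
      (by decide +kernel)

theorem six {v : Fin 13 → S5} (h : knot13.IsCol v) (hs : Perm.sign (v 0) = -1)
    (h4 : v 0 ^ 4 ≠ 1) : knot13.lonVal v arc0 = 1 := by
  obtain ⟨g, hg⟩ := of_cov cov6 (mem_all6 h hs h4 0)
  have hu := cj_col g h
  have hur := rel_of hu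
  have hu0 : code (cj g v 0) = 14353 := hg
  have m : ∀ b, code (cj g v b) ∈ L6 := by
    intro b
    refine mem_all6 hu ?_ ?_ b
    · change Perm.sign (g * v 0 * g⁻¹) = -1
      rw [map_mul, map_mul, map_inv, mul_comm, ← mul_assoc, inv_mul_cancel, one_mul, hs]
    · change (g * v 0 * g⁻¹) ^ 4 ≠ 1
      rw [conj_pow]
      intro h3
      apply h4
      have : v 0 ^ 4 = g⁻¹ * (g * v 0 ^ 4 * g⁻¹) * g := by group
      rw [this, h3]; group
  obtain ⟨s, hs, e1, e6, e8⟩ := of_srch srch6 hur hu0 (m 1) (m 6) (m 8)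
  simp only [S6, List.mem_cons, List.not_mem_nil, or_false] at hs
  subst hs
  have hc := const_of hur (code_inj (hu0.trans code_c6.symm)) (code_inj (e1.trans code_c6.symm))
    (code_inj (e6.trans code_c6.symm)) (code_inj (e8.trans code_c6.symm))
  have h5 := cj_lon g v
  have h6 : knot13.lonVal (cj g v) arc0 = 1 :=
    (congrArg (fun w : Fin 13 → S5 => knot13.lonVal w arc0) hc).trans
      (Diagram.lonVal_const knot13 isKnot c6 arc0)
  rw [h6] at h5
  have : knot13.lonVal v arc0 = g⁻¹ * (g * knot13.lonVal v arc0 * g⁻¹) * g := by group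
  rw [this, ← h5]; group

theorem reps_eq : Reps 5 knot13 arc0 = Set.range fun g : S5 => cj g w1 := by
  ext v
  constructor
  · rintro ⟨h1, ⟨h2, h3⟩, h4⟩
    rw [lon_eq] at h4
    obtain ⟨g, hg⟩ := four ((isHom_iff _ _).1 h1) h2 h3 h4
    exact ⟨g, hg.symm⟩
  · rintro ⟨g, rfl⟩
    refine ⟨(isHom_iff _ _).2 (cj_col g w1_col), ⟨?_, ?_⟩, ?_⟩
    · change (g * w1 0 * g⁻¹) ^ 4 = 1
      have : w1 0 ^ 4 = 1 := by decide +kernel
      rw [conj_pow, this]; group
    · change (g * w1 0 * g⁻¹) ^ 2 ≠ 1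
      rw [conj_pow]
      intro h3
      have h5 : w1 0 ^ 2 ≠ 1 := by decide +kernel
      apply h5
      have : w1 0 ^ 2 = g⁻¹ * (g * w1 0 ^ 2 * g⁻¹) * g := by group
      rw [this, h3]; group
    · refine (lon_eq knot13 (cj g w1) arc0).trans ?_
      rw [cj_lon, w1_lon]
      change g * w1 arc0 ^ 2 * g⁻¹ = (g * w1 arc0 * g⁻¹) ^ 2
      rw [conj_pow]

theorem card_le : Nat.card (Reps 5 knot13 arc0) ≤ 120 ∧ Nat.card (Reps 5 knot13 arc0) ≠ 0 := by
  rw [reps_eq]
  have h120 : Nat.card S5 = 120 := by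
    rw [Nat.card_eq_fintype_card, Fintype.card_perm]
    rfl
  constructor
  · rw [← h120]
    exact Nat.card_le_card_of_surjective
      (fun g : S5 => (⟨cj g w1, g, rfl⟩ : Set.range fun g : S5 => cj g w1))
      (by rintro ⟨_, g, rfl⟩; exact ⟨g, rfl⟩)
  · exact (Nat.card_pos_iff.2 ⟨⟨⟨cj 1 w1, 1, rfl⟩⟩, (Set.finite_range _).to_subtype⟩).ne'

theorem ex : SpecEx := by
  refine ⟨isKnot, ?_, ?_⟩
  · intro h
    have h1 := card_le
    have h2 := Nat.le_of_dvd (Nat.pos_of_ne_zero h1.2) h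
    omega
  · intro ρ hρ hs h4
    rw [lon_eq, six ((isHom_iff _ _).1 hρ) hs h4]
    have h2 : ρ arc0 ^ 2 ≠ 1 := by
      intro h2
      apply h4
      have : ρ arc0 ^ 4 = (ρ arc0 ^ 2) ^ 2 := by rw [← pow_mul]
      rw [this, h2, one_pow]
    exact ⟨fun h => h2 h.symm, fun h => h2 (inv_eq_one.1 h.symm)⟩

end Vale.Agent.P258.R2.H526
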